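import Vale.Agent.P254.Main

namespace Vale.Agent.Results.P254.Explicit

open Vale.Agent.P254

theorem result (n : ℕ) (hn : 1 ≤ n) (K : Set (EuclideanSpace ℝ (Fin n))) (hc : IsCompact K)
    (hv : Convex ℝ K) (hi : (interior K).Nonempty) :
    isoConst K ≤ √(2 / (Real.pi * Real.exp 1)) :=
  iso_bound hn ⟨hc, hv, hi⟩

end Vale.Agent.Results.P254.Explicit
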