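import Vale.Agent.P254V.VMain

namespace Vale.Agent.Results.P254.LocalFew

open Vale.Agent.P254

theorem result (n : ℕ) (hn : 1 ≤ n) : ∃ ε : ℝ, 0 < ε ∧
    ∀ (u : Fin (n + 1) → EuclideanSpace ℝ (Fin n)) (K : Set (EuclideanSpace ℝ (Fin n))),
      AffineIndependent ℝ u →
      ((∃ v : Fin (n + 1) → EuclideanSpace ℝ (Fin n), AffineIndependent ℝ v ∧
          IsCompact K ∧ Convex ℝ K ∧ convexHull ℝ (Set.range v) ⊆ K ∧
          K ⊆ AffineMap.homothety (Finset.univ.centroid ℝ v) (1 + ε) ''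
            convexHull ℝ (Set.range v)) ∨
        (∃ s : Finset (EuclideanSpace ℝ (Fin n)), s.card ≤ n + 2 ∧ K = convexHull ℝ s ∧
          (interior K).Nonempty)) →
      isoConst K ≤ isoConst (convexHull ℝ (Set.range u)) ∧
        (isoConst K = isoConst (convexHull ℝ (Set.range u)) →
          ∃ w : Fin (n + 1) → EuclideanSpace ℝ (Fin n), AffineIndependent ℝ w ∧
            K = convexHull ℝ (Set.range w)) := by
  obtain ⟨ε, h0, h⟩ := Vale.Agent.P254L.local_max n hn
  refine ⟨ε, h0, fun u K hu hK => ?_⟩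
  rcases hK with ⟨v, hv, h1, h2, h3, h4⟩ | ⟨s, h1, h2, h3⟩
  · rw [Vale.Agent.P254L.iso_simplex hu hv]
    exact h v K hv h1 h2 h3 h4
  · exact Vale.Agent.P254L.few_vertices n hn u hu s h1 K h2 h3

end Vale.Agent.Results.P254.LocalFew
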