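import Vale.Agent.P254L.Main

namespace Vale.Agent.Results.P254.LocalMax

open Vale.Agent.P254

theorem result (n : ℕ) (hn : 1 ≤ n) : ∃ ε : ℝ, 0 < ε ∧
    ∀ (v : Fin (n + 1) → EuclideanSpace ℝ (Fin n)) (K : Set (EuclideanSpace ℝ (Fin n))),
      AffineIndependent ℝ v → IsCompact K → Convex ℝ K → convexHull ℝ (Set.range v) ⊆ K →
      K ⊆ AffineMap.homothety (Finset.univ.centroid ℝ v) (1 + ε) '' convexHull ℝ (Set.range v) →
      isoConst K ≤ isoConst (convexHull ℝ (Set.range v)) ∧
        (isoConst K = isoConst (convexHull ℝ (Set.range v)) →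
          ∃ w : Fin (n + 1) → EuclideanSpace ℝ (Fin n), AffineIndependent ℝ w ∧
            K = convexHull ℝ (Set.range w)) :=
  Vale.Agent.P254L.local_max n hn

end Vale.Agent.Results.P254.LocalMax
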